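import Vale.Agent.P335.GDefs
import Vale.Agent.P335.FinalH

/-!
P335: the switch chain mixes rapidly, uniformly, over all degree vectors
(the Kannan-Tetali-Vempala conjecture for simple graphs).
-/

namespace Vale.Agent.Results.P335.AllGraphs

open Vale.Agent.P335

/-- For every `n ≥ 4` and every degree vector `d` on `n` vertices, the switch chain on the simple
graphs with degree vector `d`, started at any realization, is within total variation distance
`1/4` of uniform after `n ^ 6` steps, and its mixing time is at most `n ^ 6`. -/
theorem result : ∀ (n : ℕ) (d : Fin n → ℕ), 4 ≤ n →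
    (∀ G ∈ Om d, tv d (n ^ 6) G ≤ 1 / 4) ∧ tmix d ≤ n ^ 6 :=
  H.FIN.fullmix

end Vale.Agent.Results.P335.AllGraphs
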