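import Vale.Agent.P335.GDefs
import Vale.Agent.P335.Final

/-!
P335: the switch chain mixes rapidly, uniformly, over all degree vectors of split graphs.
-/

namespace Vale.Agent.Results.P335.SplitRapid

open Vale.Agent.P335

/-- For every `n ≥ 4` and every degree vector `d` on `n` vertices that has a realization which is
a split graph, the switch chain on all simple graphs with degree vector `d`, started at any
realization, is within total variation distance `1/4` of uniform after `n ^ 6` steps; in
particular its mixing time is at most `n ^ 6`. -/
theorem result : ∀ (n : ℕ) (d : Fin n → ℕ), 4 ≤ n →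
    (∃ (K : Finset (Fin n)) (G : SimpleGraph (Fin n)), G ∈ Om d ∧ SplitBy K G) →
    (∀ G ∈ Om d, tv d (n ^ 6) G ≤ 1 / 4) ∧ tmix d ≤ n ^ 6 :=
  FIN.splitmix

end Vale.Agent.Results.P335.SplitRapid
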