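import Vale.Agent.P335.L.LDefs
import Vale.Agent.P335.L.Lit
import Vale.Agent.P335.FinalH

/-!
P335, Q1 (the Kannan-Tetali-Vempala conjecture for simple graphs): the switch chain of the
problem, written literally (uniform 4-set, uniform ordered pair of distinct perfect matchings),
mixes within `n ^ 6` steps for every graphical degree vector.
-/

namespace Vale.Agent.Results.P335.SwitchChain

open Vale.Agent.P335.Lit

/-- For every `n ≥ 4` and every graphical degree vector `d` on `n` vertices: after `n ^ 6` steps
from any start the total variation distance to uniform is at most `1/4`, the minimum defining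
the mixing time is attained, and the mixing time is at most `n ^ 6`. -/
theorem result : ∀ (n : ℕ) (d : Fin n → ℕ), 4 ≤ n → (Omega d).Nonempty →
    (∀ G ∈ Omega d, tvDist d (n ^ 6) G ≤ 1 / 4) ∧
    (∀ G ∈ Omega d, tvDist d (mixingTime d) G ≤ 1 / 4) ∧
    mixingTime d ≤ n ^ 6 := by
  intro n d hn _
  have h : ∀ G ∈ Omega d, tvDist d (n ^ 6) G ≤ 1 / 4 := by
    intro G hG
    rw [Omega_eq] at hG
    exact (tv_le d (n ^ 6) G).trans ((Vale.Agent.P335.H.FIN.fullmix n d hn).1 G hG)
  exact ⟨h, Nat.sInf_mem (s := {t | ∀ G ∈ Omega d, tvDist d t G ≤ 1 / 4}) ⟨n ^ 6, h⟩,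
    Nat.sInf_le h⟩

end Vale.Agent.Results.P335.SwitchChain
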